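import Mathlib
import Crest.Prelude.Def_AsymptoticConvexity
import Crest.Agent.Helper30.AUCBasic

/-!
Row 125 / S0167, package [C] (helper7): generic normed-space part.

* `oneSided_ge` : at every unit `x` the kernel `F` of a norming functional satisfies
  `max 0 (t - 2) ≤ ‖x + t • y‖ - 1` for all unit `y ∈ F`.
* `midpoint_ge_sub_one` : trivial bound `t - 1 ≤ (‖x + t y‖ + ‖x - t y‖)/2 - 1`.
* `LemmaAProp X` : the conclusion of "Lemma A" (Daugavet ⟹ weak-neighbourhood version).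
* `StarProp X` : `∀ unit x, cof F, ε > 0, ∃ unit y ∈ F, ‖x + 2 y‖ ≤ 1 + ε`.
* `star_of_lemmaA`, `oneSided_le_of_star`, `midpoint_le_of_star`, `no_auc_of_star`.
-/

set_option autoImplicit false

namespace Crest.Agent.Helper7

open Crest.Agent.Helper30

variable {X : Type*} [NormedAddCommGroup X] [NormedSpace ℝ X]

/-- (C1) one-sided lower bound at a unit vector. -/
theorem oneSided_ge (x : X) (hx : ‖x‖ = 1) (t : ℝ) (ht : 0 < t) :
    ∃ F : Set X, IsCofSet X F ∧ ∀ y ∈ F, ‖y‖ = 1 → max 0 (t - 2) ≤ ‖x + t • y‖ - 1 := by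
  have hx0 : ‖x‖ ≠ 0 := by rw [hx]; exact one_ne_zero
  obtain ⟨g, hg, hgx⟩ := exists_dual_vector ℝ x hx0
  refine ⟨{y | g y = 0}, isCofSet_ker g, ?_⟩
  intro y hy hy1
  have hy0 : g y = 0 := hy
  have hgx' : g x = 1 := by rw [hgx, hx]; rfl
  have h1 : (1 : ℝ) ≤ ‖x + t • y‖ := by
    have h : g (x + t • y) = 1 := by
      rw [map_add, map_smul, hy0, hgx']; simp
    calc (1 : ℝ) = g (x + t • y) := h.symm
      _ ≤ ‖g (x + t • y)‖ := Real.le_norm_self _
      _ ≤ ‖g‖ * ‖x + t • y‖ := g.le_opNorm _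
      _ = ‖x + t • y‖ := by rw [hg, one_mul]
  have h2 : t - 1 ≤ ‖x + t • y‖ := by
    have h : ‖t • y‖ ≤ ‖x + t • y‖ + ‖x‖ := by
      calc ‖t • y‖ = ‖(x + t • y) - x‖ := by rw [add_sub_cancel_left]
        _ ≤ ‖x + t • y‖ + ‖x‖ := norm_sub_le _ _
    rw [norm_smul, hy1, hx, Real.norm_eq_abs, abs_of_pos ht] at h
    linarith
  rcases le_total 0 (t - 2) with h | h
  · rw [max_eq_right h]; linarith
  · rw [max_eq_left h]; linarith

/-- trivial midpoint lower bound `t - 1`. -/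
theorem midpoint_ge_sub_one (x y : X) (hy : ‖y‖ = 1) (t : ℝ) (ht : 0 < t) :
    t - 1 ≤ (‖x + t • y‖ + ‖x - t • y‖) / 2 - 1 := by
  have h : ‖(2 : ℝ) • (t • y)‖ ≤ ‖x + t • y‖ + ‖x - t • y‖ := by
    calc ‖(2 : ℝ) • (t • y)‖ = ‖(x + t • y) - (x - t • y)‖ := by
          congr 1; rw [two_smul]; abel
      _ ≤ ‖x + t • y‖ + ‖x - t • y‖ := norm_sub_le _ _
  rw [norm_smul, norm_smul, hy, Real.norm_eq_abs, Real.norm_eq_abs, abs_of_pos ht] at h
  norm_num at h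
  linarith

/-- The conclusion of Lemma A (helper52's `lemmaA`), as a property of the space. -/
def LemmaAProp (X : Type*) [NormedAddCommGroup X] [NormedSpace ℝ X] : Prop :=
  ∀ (S : Submodule ℝ X), IsClosed (S : Set X) → FiniteDimensional ℝ (X ⧸ S) →
    ∀ (z x : X), ‖z‖ ≤ 1 → ‖x‖ = 1 → ∀ ε : ℝ, 0 < ε →
      ∃ v : X, v - z ∈ S ∧ ‖v‖ ≤ 1 + ε ∧ 2 - ε ≤ ‖v + x‖

/-- (★): every cof subspace contains unit vectors `y` with `‖x + 2 y‖ ≤ 1 + ε`. -/
def StarProp (X : Type*) [NormedAddCommGroup X] [NormedSpace ℝ X] : Prop :=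
  ∀ x : X, ‖x‖ = 1 → ∀ F : Set X, IsCofSet X F → ∀ ε : ℝ, 0 < ε →
    ∃ y ∈ F, ‖y‖ = 1 ∧ ‖x + (2 : ℝ) • y‖ ≤ 1 + ε

theorem star_of_lemmaA (hA : LemmaAProp X) : StarProp X := by
  intro x hx F hF ε hε
  obtain ⟨S, hSF, hcl, hfd⟩ := hF
  set e : ℝ := min (ε / 2) 1 with he
  have he0 : 0 < e := lt_min (by linarith) one_pos
  have he1 : e ≤ 1 := min_le_right _ _
  have he2 : e ≤ ε / 2 := min_le_left _ _
  have hclS : IsClosed (S : Set X) := by rw [hSF]; exact hcl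
  obtain ⟨v, hvS, hv1, hv2⟩ := hA S hclS hfd (-x) x (by rw [norm_neg, hx]) hx e he0
  set w : X := v + x with hw
  have hwS : w ∈ S := by simpa [hw, sub_neg_eq_add] using hvS
  have hwn : 2 - e ≤ ‖w‖ := hv2
  have hwpos : 0 < ‖w‖ := by linarith
  have hwle : ‖w‖ ≤ 2 + e := by
    calc ‖w‖ ≤ ‖v‖ + ‖x‖ := norm_add_le _ _
      _ ≤ 2 + e := by rw [hx]; linarith
  refine ⟨(-(1 / ‖w‖)) • w, ?_, ?_, ?_⟩
  · rw [← hSF]; exact S.smul_mem _ hwS
  · rw [norm_smul, Real.norm_eq_abs, abs_neg, abs_of_pos (by positivity)]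
    field_simp
  · have hdecomp : x + (2 : ℝ) • ((-(1 / ‖w‖)) • w) = (-v) + ((‖w‖ - 2) / ‖w‖) • w := by
      have hx' : x = w - v := by rw [hw]; abel
      rw [smul_smul]
      have hc : (2 : ℝ) * (-(1 / ‖w‖)) = (‖w‖ - 2) / ‖w‖ - 1 := by
        field_simp; ring
      rw [hc, sub_smul, one_smul]
      conv_lhs => rw [hx']
      abel
    rw [hdecomp]
    calc ‖-v + ((‖w‖ - 2) / ‖w‖) • w‖ ≤ ‖-v‖ + ‖((‖w‖ - 2) / ‖w‖) • w‖ := norm_add_le _ _
      _ = ‖v‖ + |‖w‖ - 2| := by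
          rw [norm_neg, norm_smul, Real.norm_eq_abs, abs_div, abs_of_pos hwpos]
          congr 1
          field_simp
      _ ≤ (1 + e) + e := by
          have : |‖w‖ - 2| ≤ e := by rw [abs_le]; constructor <;> linarith
          linarith
      _ ≤ 1 + ε := by linarith

/-- From (★): a unit `y ∈ F` good for every `t` simultaneously. -/
theorem exists_unit_of_star (hS : StarProp X) (x : X) (hx : ‖x‖ = 1) (F : Set X)
    (hF : IsCofSet X F) (ε : ℝ) (hε : 0 < ε) :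
    ∃ y ∈ F, ‖y‖ = 1 ∧ ∀ t : ℝ, 0 < t → ‖x + t • y‖ - 1 ≤ max 0 (t - 2) + ε := by
  obtain ⟨y, hyF, hy1, hy2⟩ := hS x hx F hF ε hε
  refine ⟨y, hyF, hy1, ?_⟩
  intro t ht
  rcases le_total t 2 with h | h
  · -- convexity
    have hdecomp : x + t • y = (1 - t / 2) • x + (t / 2) • (x + (2 : ℝ) • y) := by
      rw [smul_add, smul_smul, sub_smul, one_smul]
      have : t / 2 * 2 = t := by ring
      rw [this]; abel
    have hb : ‖x + t • y‖ ≤ (1 - t / 2) * 1 + (t / 2) * (1 + ε) := by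
      rw [hdecomp]
      calc ‖(1 - t / 2) • x + (t / 2) • (x + (2 : ℝ) • y)‖
          ≤ ‖(1 - t / 2) • x‖ + ‖(t / 2) • (x + (2 : ℝ) • y)‖ := norm_add_le _ _
        _ = (1 - t / 2) * 1 + (t / 2) * ‖x + (2 : ℝ) • y‖ := by
            rw [norm_smul, norm_smul, hx, Real.norm_eq_abs, Real.norm_eq_abs,
              abs_of_nonneg (by linarith : (0 : ℝ) ≤ 1 - t / 2),
              abs_of_nonneg (by linarith : (0 : ℝ) ≤ t / 2)]
        _ ≤ (1 - t / 2) * 1 + (t / 2) * (1 + ε) := by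
            have : (0 : ℝ) ≤ t / 2 := by linarith
            gcongr
    have hmax : (0 : ℝ) ≤ max 0 (t - 2) := le_max_left _ _
    nlinarith
  · have hdecomp : x + t • y = (x + (2 : ℝ) • y) + (t - 2) • y := by
      rw [sub_smul]; abel
    have hb : ‖x + t • y‖ ≤ (1 + ε) + (t - 2) := by
      rw [hdecomp]
      calc ‖(x + (2 : ℝ) • y) + (t - 2) • y‖ ≤ ‖x + (2 : ℝ) • y‖ + ‖(t - 2) • y‖ :=
            norm_add_le _ _
        _ ≤ (1 + ε) + (t - 2) := by
            rw [norm_smul, hy1, Real.norm_eq_abs, abs_of_nonneg (by linarith : (0 : ℝ) ≤ t - 2)]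
            linarith
    have hmax : t - 2 ≤ max 0 (t - 2) := le_max_right _ _
    linarith

theorem oneSided_le_of_star (hS : StarProp X) (t : ℝ) (ht : 0 < t) :
    ∀ x : X, ‖x‖ = 1 → ∀ F : Set X, IsCofSet X F → ∀ η : ℝ, 0 < η →
      ∃ y ∈ F, ‖y‖ = 1 ∧ ‖x + t • y‖ - 1 ≤ max 0 (t - 2) + η := by
  intro x hx F hF η hη
  obtain ⟨y, hyF, hy1, hy⟩ := exists_unit_of_star hS x hx F hF η hη
  exact ⟨y, hyF, hy1, hy t ht⟩

theorem midpoint_le_of_star (hS : StarProp X) (t : ℝ) (ht : 0 < t) :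
    ∀ x : X, ‖x‖ = 1 → ∀ F : Set X, IsCofSet X F → ∀ η : ℝ, 0 < η →
      ∃ y ∈ F, ‖y‖ = 1 ∧ (‖x + t • y‖ + ‖x - t • y‖) / 2 - 1 ≤ max (t / 2) (t - 1) + η := by
  intro x hx F hF η hη
  obtain ⟨y, hyF, hy1, hy⟩ := exists_unit_of_star hS x hx F hF η hη
  refine ⟨y, hyF, hy1, ?_⟩
  have h1 := hy t ht
  have h2 : ‖x - t • y‖ ≤ 1 + t := by
    calc ‖x - t • y‖ ≤ ‖x‖ + ‖t • y‖ := norm_sub_le _ _
      _ = 1 + t := by rw [norm_smul, hx, hy1, Real.norm_eq_abs, abs_of_pos ht, mul_one]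
  rcases le_total t 2 with h | h
  · rw [max_eq_left (by linarith : t - 2 ≤ 0)] at h1
    have : t / 2 ≤ max (t / 2) (t - 1) := le_max_left _ _
    linarith
  · rw [max_eq_right (by linarith : 0 ≤ t - 2)] at h1
    have : t - 1 ≤ max (t / 2) (t - 1) := le_max_right _ _
    linarith

/-- From (★), no equivalent norm is AUC (the space being nonzero). -/
theorem no_auc_of_star (hS : StarProp X) (hne : ∃ x : X, x ≠ 0) (N : X → ℝ)
    (hN : IsEquivNormOn N) : ¬ IsAUCOn N := by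
  intro hAUC
  obtain ⟨hadd, hhom, a, b, ha, hab⟩ := hN
  obtain ⟨x₁, hx₁⟩ := hne
  have hx₁n : 0 < ‖x₁‖ := norm_pos_iff.mpr hx₁
  have hb : 0 < b := by
    have h := hab x₁
    have : a * ‖x₁‖ ≤ b * ‖x₁‖ := h.1.trans h.2
    have : a ≤ b := le_of_mul_le_mul_right this hx₁n
    linarith
  -- unit vector
  set u : X := (1 / ‖x₁‖) • x₁ with hu
  have hu1 : ‖u‖ = 1 := by
    rw [hu, norm_smul, Real.norm_eq_abs, abs_of_pos (by positivity)]
    field_simp
  set t₀ : ℝ := 2 * a / b with ht₀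
  have ht₀pos : 0 < t₀ := by positivity
  obtain ⟨c, hc, hAUC'⟩ := hAUC t₀ ht₀pos
  -- R = sup of N on the unit sphere
  set T : Set ℝ := {r | ∃ z : X, ‖z‖ = 1 ∧ N z = r} with hT
  have hTne : T.Nonempty := ⟨N u, u, hu1, rfl⟩
  have hTbdd : BddAbove T := by
    refine ⟨b, ?_⟩
    rintro r ⟨z, hz, rfl⟩
    have := (hab z).2
    rwa [hz, mul_one] at this
  set R : ℝ := sSup T with hR
  have hRa : a ≤ R := by
    have h1 : N u ≤ R := le_csSup hTbdd ⟨u, hu1, rfl⟩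
    have h2 := (hab u).1
    rw [hu1, mul_one] at h2
    linarith
  have hRpos : 0 < R := lt_of_lt_of_le ha hRa
  -- N z ≤ R * ‖z‖ for all z
  have hNR : ∀ z : X, N z ≤ R * ‖z‖ := by
    intro z
    by_cases hz : z = 0
    · subst hz
      have h0 : N (0 : X) = 0 := by
        have := hhom 0 (0 : X)
        simpa using this
      rw [h0, norm_zero, mul_zero]
    · have hzn : 0 < ‖z‖ := norm_pos_iff.mpr hz
      have hz1 : ‖(1 / ‖z‖) • z‖ = 1 := by
        rw [norm_smul, Real.norm_eq_abs, abs_of_pos (by positivity)]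
        field_simp
      have h1 : N ((1 / ‖z‖) • z) ≤ R := le_csSup hTbdd ⟨_, hz1, rfl⟩
      rw [hhom, abs_of_pos (by positivity)] at h1
      have : N z = ‖z‖ * (1 / ‖z‖ * N z) := by field_simp
      rw [this]
      calc ‖z‖ * (1 / ‖z‖ * N z) ≤ ‖z‖ * R := by gcongr
        _ = R * ‖z‖ := mul_comm _ _
  -- choose z₀ with N z₀ close to R
  have hρ : R * ((1 + c / 2) / (1 + c)) < R := by
    have : (1 + c / 2) / (1 + c) < 1 := by
      rw [div_lt_one (by linarith)]; linarith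
    calc R * ((1 + c / 2) / (1 + c)) < R * 1 := by gcongr
      _ = R := mul_one R
  obtain ⟨r, ⟨z₀, hz₀, rfl⟩, hr⟩ := exists_lt_of_lt_csSup hTne hρ
  have hNz₀pos : 0 < N z₀ := by
    have := (hab z₀).1
    rw [hz₀, mul_one] at this
    linarith
  have hNz₀b : N z₀ ≤ b := by
    have := (hab z₀).2
    rwa [hz₀, mul_one] at this
  -- normalised centre
  obtain ⟨x, hxdef⟩ : ∃ x : X, x = (1 / N z₀) • z₀ := ⟨_, rfl⟩
  have hNx : N x = 1 := by
    rw [hxdef, hhom, abs_of_pos (by positivity)]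
    field_simp
  obtain ⟨F, hF, hFy⟩ := hAUC' x hNx
  obtain ⟨y₀, hy₀F, hy₀1, hy₀⟩ := hS z₀ hz₀ F hF (c / 2) (by linarith)
  obtain ⟨S, hSF, -, -⟩ := hF
  have hNy₀a : a ≤ N y₀ := by
    have := (hab y₀).1
    rwa [hy₀1, mul_one] at this
  have hNy₀pos : 0 < N y₀ := lt_of_lt_of_le ha hNy₀a
  obtain ⟨y, hydef⟩ : ∃ y : X, y = (1 / N y₀) • y₀ := ⟨_, rfl⟩
  have hyF : y ∈ F := by
    rw [← hSF] at hy₀F ⊢
    rw [hydef]
    exact S.smul_mem _ hy₀F
  have hNy : N y = 1 := by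
    rw [hydef, hhom, abs_of_pos (by positivity)]
    field_simp
  have hc1 := hFy y hyF hNy
  -- s = 2 N y₀ / N z₀ ≥ t₀
  set s : ℝ := 2 * N y₀ / N z₀ with hs
  have hst : t₀ ≤ s := by
    rw [ht₀, hs, div_le_div_iff₀ hb hNz₀pos]
    nlinarith
  have hspos : 0 < s := lt_of_lt_of_le ht₀pos hst
  -- z₀ + 2 y₀ = N z₀ • (x + s • y)
  have hzy : z₀ + (2 : ℝ) • y₀ = (N z₀) • (x + s • y) := by
    rw [hxdef, hydef, smul_add, smul_smul, smul_smul, smul_smul]
    have h1 : N z₀ * (1 / N z₀) = 1 := by field_simp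
    have h2 : N z₀ * s * (1 / N y₀) = 2 := by rw [hs]; field_simp
    rw [h1, h2, one_smul]
  -- convexity: N (x + t₀ y) ≤ (1 - λ) + λ N (x + s y), λ = t₀ / s
  set l : ℝ := t₀ / s with hl
  have hl0 : 0 < l := by positivity
  have hl1 : l ≤ 1 := by rw [hl, div_le_one hspos]; exact hst
  have hconv : N (x + t₀ • y) ≤ (1 - l) + l * N (x + s • y) := by
    have hdecomp : x + t₀ • y = (1 - l) • x + l • (x + s • y) := by
      rw [smul_add, smul_smul, sub_smul, one_smul]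
      have : l * s = t₀ := by rw [hl]; field_simp
      rw [this]; abel
    rw [hdecomp]
    calc N ((1 - l) • x + l • (x + s • y)) ≤ N ((1 - l) • x) + N (l • (x + s • y)) := hadd _ _
      _ = (1 - l) + l * N (x + s • y) := by
          rw [hhom, hhom, hNx, abs_of_nonneg (by linarith : (0 : ℝ) ≤ 1 - l), abs_of_pos hl0,
            mul_one]
  have hbig : 1 + c ≤ N (x + s • y) := by
    have h1 : 1 + c ≤ (1 - l) + l * N (x + s • y) := by linarith
    have h2 : c ≤ l * (N (x + s • y) - 1) := by linarith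
    have h3 : l * (N (x + s • y) - 1) ≤ N (x + s • y) - 1 := by
      have hnn : 0 ≤ N (x + s • y) - 1 := by
        by_contra hneg
        rw [not_le] at hneg
        have : l * (N (x + s • y) - 1) < 0 := mul_neg_of_pos_of_neg hl0 hneg
        linarith
      calc l * (N (x + s • y) - 1) ≤ 1 * (N (x + s • y) - 1) := by gcongr
        _ = N (x + s • y) - 1 := one_mul _
    linarith
  have hlow : N z₀ * (1 + c) ≤ N (z₀ + (2 : ℝ) • y₀) := by
    rw [hzy, hhom, abs_of_pos hNz₀pos]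
    gcongr
  have hup : N (z₀ + (2 : ℝ) • y₀) ≤ R * (1 + c / 2) := by
    calc N (z₀ + (2 : ℝ) • y₀) ≤ R * ‖z₀ + (2 : ℝ) • y₀‖ := hNR _
      _ ≤ R * (1 + c / 2) := by gcongr
  have hfin : R * (1 + c / 2) < N z₀ * (1 + c) := by
    have h1c : 0 < 1 + c := by linarith
    have : R * ((1 + c / 2) / (1 + c)) * (1 + c) < N z₀ * (1 + c) := by gcongr
    have h2 : R * ((1 + c / 2) / (1 + c)) * (1 + c) = R * (1 + c / 2) := by field_simp
    linarith
  linarith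

end Crest.Agent.Helper7
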