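import Mathlib
import Crest.Prelude.Def_DaugavetL1
import Crest.Agent.Helper30.AUCBasic

/-!
Row 125 / S0167, package [C] (helper7): measure part.

For a subspace `E` of `L¹(P)` (`P` a probability measure) whose unit ball is totally bounded in
measure, at every unit `x ∈ E`, every `t > 0` and `η > 0` there is a closed finite-codimensional
`F ⊆ E` with `t / 2 - η ≤ (‖x + t y‖ + ‖x - t y‖) / 2 - 1` for all unit `y ∈ F`
(`midpoint_ge_half`).
-/

set_option autoImplicit false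

namespace Crest.Agent.Helper7

open MeasureTheory Crest.Agent.Helper30 Crest.AnalysisR.L1Subspace

variable {Ω : Type} [MeasurableSpace Ω] (P : Measure Ω)

/-- a measurable sign of (the chosen representative of) `g` -/
noncomputable def sgn (g : Lp ℝ 1 P) (ω : Ω) : ℝ := if 0 ≤ g ω then 1 else -1

theorem measurable_sgn (g : Lp ℝ 1 P) : Measurable (sgn P g) := by
  unfold sgn
  exact Measurable.ite (measurableSet_le measurable_const (Lp.stronglyMeasurable g).measurable)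
    measurable_const measurable_const

theorem sgn_mul_self (g : Lp ℝ 1 P) (ω : Ω) : sgn P g ω * g ω = |g ω| := by
  unfold sgn
  split_ifs with h
  · rw [one_mul, abs_of_nonneg h]
  · rw [abs_of_neg (not_le.mp h)]; ring

theorem abs_sgn (g : Lp ℝ 1 P) (ω : Ω) : |sgn P g ω| = 1 := by
  unfold sgn; split_ifs <;> simp

theorem integrable_sgn_mul (g y : Lp ℝ 1 P) : Integrable (fun ω => sgn P g ω * y ω) P := by
  refine Integrable.mono' (L1.integrable_coeFn y).norm ?_ ?_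
  · exact ((measurable_sgn P g).aestronglyMeasurable).mul (Lp.aestronglyMeasurable y)
  · refine Filter.Eventually.of_forall (fun ω => ?_)
    rw [norm_mul, Real.norm_eq_abs, abs_sgn, one_mul]

/-- the functional `y ↦ ∫ sgn g · y` on a subspace of `L¹` -/
noncomputable def sgnFunctional (E : Submodule ℝ (Lp ℝ 1 P)) (g : Lp ℝ 1 P) : E →L[ℝ] ℝ :=
  LinearMap.mkContinuous
    { toFun := fun y => ∫ ω, sgn P g ω * (y : Lp ℝ 1 P) ω ∂P
      map_add' := by
        intro y₁ y₂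
        rw [← integral_add (integrable_sgn_mul P g y₁) (integrable_sgn_mul P g y₂)]
        apply integral_congr_ae
        have h := Lp.coeFn_add (y₁ : Lp ℝ 1 P) (y₂ : Lp ℝ 1 P)
        filter_upwards [h] with ω hω
        rw [Submodule.coe_add, hω, Pi.add_apply]; ring
      map_smul' := by
        intro c y
        simp only [RingHom.id_apply, smul_eq_mul]
        rw [← integral_const_mul]
        apply integral_congr_ae
        have h := Lp.coeFn_smul c (y : Lp ℝ 1 P)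
        filter_upwards [h] with ω hω
        rw [Submodule.coe_smul, hω, Pi.smul_apply, smul_eq_mul]; ring }
    1 (by
      intro y
      rw [one_mul]
      show ‖∫ ω, sgn P g ω * (y : Lp ℝ 1 P) ω ∂P‖ ≤ ‖y‖
      calc ‖∫ ω, sgn P g ω * (y : Lp ℝ 1 P) ω ∂P‖
          ≤ ∫ ω, ‖sgn P g ω * (y : Lp ℝ 1 P) ω‖ ∂P := norm_integral_le_integral_norm _
        _ = ∫ ω, ‖(y : Lp ℝ 1 P) ω‖ ∂P := by
            apply integral_congr_ae
            refine Filter.Eventually.of_forall (fun ω => ?_)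
            show ‖sgn P g ω * (y : Lp ℝ 1 P) ω‖ = ‖(y : Lp ℝ 1 P) ω‖
            rw [norm_mul, Real.norm_eq_abs, abs_sgn, one_mul]
        _ = ‖(y : Lp ℝ 1 P)‖ := (L1.norm_eq_integral_norm _).symm
        _ = ‖y‖ := rfl)

theorem sgnFunctional_apply (E : Submodule ℝ (Lp ℝ 1 P)) (g : Lp ℝ 1 P) (y : E) :
    sgnFunctional P E g y = ∫ ω, sgn P g ω * (y : Lp ℝ 1 P) ω ∂P := rfl

/-- norm of a sum `x + t y` in the subspace as an integral -/
theorem norm_add_smul_eq (E : Submodule ℝ (Lp ℝ 1 P)) (x y : E) (t : ℝ) :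
    ‖x + t • y‖ = ∫ ω, |(x : Lp ℝ 1 P) ω + t * (y : Lp ℝ 1 P) ω| ∂P := by
  rw [Submodule.coe_norm, L1.norm_eq_integral_norm]
  apply integral_congr_ae
  have h1 := Lp.coeFn_add (x : Lp ℝ 1 P) (t • (y : Lp ℝ 1 P))
  have h2 := Lp.coeFn_smul t (y : Lp ℝ 1 P)
  filter_upwards [h1, h2] with ω h1 h2
  rw [Submodule.coe_add, Submodule.coe_smul, h1, Pi.add_apply, h2, Pi.smul_apply, smul_eq_mul,
    Real.norm_eq_abs]

theorem norm_eq_integral_abs (E : Submodule ℝ (Lp ℝ 1 P)) (x : E) :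
    ‖x‖ = ∫ ω, |(x : Lp ℝ 1 P) ω| ∂P := by
  rw [Submodule.coe_norm, L1.norm_eq_integral_norm]
  rfl

theorem integrable_abs_coe (x : Lp ℝ 1 P) : Integrable (fun ω => |x ω|) P :=
  (L1.integrable_coeFn x).norm

variable [IsProbabilityMeasure P]

/-- (C2) the measure-theoretic midpoint lower bound `t / 2`. -/
theorem midpoint_ge_half (E : Submodule ℝ (Lp ℝ 1 P))
    (htb : UnitBallTotallyBoundedInMeasure P E)
    (x : E) (hx : ‖x‖ = 1) (t : ℝ) (ht : 0 < t) (η : ℝ) (hη : 0 < η) :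
    ∃ F : Set E, IsCofSet E F ∧
      ∀ y ∈ F, ‖y‖ = 1 → t / 2 - η ≤ (‖x + t • y‖ + ‖x - t • y‖) / 2 - 1 := by
  classical
  -- absolute continuity of `∫ |x|`
  have hxi : Integrable (fun ω => (x : Lp ℝ 1 P) ω) P := L1.integrable_coeFn _
  have hfin : ∫⁻ ω, ‖(x : Lp ℝ 1 P) ω‖ₑ ∂P ≠ ⊤ := hxi.hasFiniteIntegral.ne
  obtain ⟨δ, hδ, hδA⟩ := exists_pos_setLIntegral_lt_of_measure_lt hfin
    (ε := ENNReal.ofReal (η / 2)) (by simp; linarith)
  have hδ1 : min δ 1 ≠ ⊤ := ne_of_lt (lt_of_le_of_lt (min_le_right _ _) ENNReal.one_lt_top)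
  have hδ1pos : 0 < (min δ 1).toReal :=
    ENNReal.toReal_pos (ne_of_gt (lt_min hδ one_pos)) hδ1
  have hsmall : ∀ A : Set Ω, ∀ a : ℝ, a ≤ (min δ 1).toReal → P A < ENNReal.ofReal a →
      ∫ ω in A, |(x : Lp ℝ 1 P) ω| ∂P < η / 2 := by
    intro A a ha hPA
    have h1 : P A < δ := by
      calc P A < ENNReal.ofReal a := hPA
        _ ≤ ENNReal.ofReal (min δ 1).toReal := ENNReal.ofReal_le_ofReal ha
        _ = min δ 1 := ENNReal.ofReal_toReal hδ1
        _ ≤ δ := min_le_left _ _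
    have h2 := hδA A h1
    have h3 : ∫ ω in A, |(x : Lp ℝ 1 P) ω| ∂P = (∫⁻ ω in A, ‖(x : Lp ℝ 1 P) ω‖ₑ ∂P).toReal :=
      integral_norm_eq_lintegral_enorm hxi.aestronglyMeasurable.restrict
    rw [h3]
    exact ENNReal.toReal_lt_of_lt_ofReal h2
  -- choice of ε and the net
  set ε : ℝ := min (min δ 1).toReal (η / (2 * t)) with hε
  have hε0 : 0 < ε := lt_min hδ1pos (by positivity)
  have hε1 : ε ≤ (min δ 1).toReal := min_le_left _ _
  have hε2 : t * ε ≤ η / 2 := by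
    have : ε ≤ η / (2 * t) := min_le_right _ _
    calc t * ε ≤ t * (η / (2 * t)) := by gcongr
      _ = η / 2 := by field_simp
  obtain ⟨s, hs, hnet⟩ := htb ε hε0
  refine ⟨{y : E | ∀ i : s, sgnFunctional P E i.1 y = 0},
    isCofSet_forall_eq_zero (fun i : s => sgnFunctional P E i.1), ?_⟩
  intro y hy hy1
  obtain ⟨g, hgs, hdist⟩ := hnet (y : Lp ℝ 1 P) y.2 (le_of_eq hy1)
  have hφ : ∫ ω, sgn P g ω * (y : Lp ℝ 1 P) ω ∂P = 0 := hy ⟨g, hgs⟩
  unfold measureDist at hdist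
  have hne : {a : ℝ | 0 < a ∧ P {z | a < abs (((y : Lp ℝ 1 P) : Ω → ℝ) z - (g : Ω → ℝ) z)}
      < ENNReal.ofReal a}.Nonempty := by
    refine ⟨2, by norm_num, ?_⟩
    calc P {z | (2 : ℝ) < abs (((y : Lp ℝ 1 P) : Ω → ℝ) z - (g : Ω → ℝ) z)} ≤ 1 := prob_le_one
      _ < ENNReal.ofReal 2 := by simp
  obtain ⟨a, ⟨ha0, haP⟩, haε⟩ := exists_lt_of_csInf_lt hne hdist
  set A : Set Ω := {z | a < abs (((y : Lp ℝ 1 P) : Ω → ℝ) z - (g : Ω → ℝ) z)} with hAdef
  have hA : MeasurableSet A := by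
    refine measurableSet_lt measurable_const ?_
    exact continuous_abs.measurable.comp
      ((Lp.stronglyMeasurable (y : Lp ℝ 1 P)).measurable.sub (Lp.stronglyMeasurable g).measurable)
  -- integrability facts
  have hyi : Integrable (fun ω => |(y : Lp ℝ 1 P) ω|) P := integrable_abs_coe P _
  have hxi' : Integrable (fun ω => |(x : Lp ℝ 1 P) ω|) P := integrable_abs_coe P _
  -- the key estimate on `y`
  have hkey : ∫ ω in Aᶜ, |(y : Lp ℝ 1 P) ω| ∂P - ∫ ω in A, |(y : Lp ℝ 1 P) ω| ∂P - 2 * a ≤ 0 := by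
    have hpt : ∀ ω, (Aᶜ).indicator (fun ω => |(y : Lp ℝ 1 P) ω|) ω
        - A.indicator (fun ω => |(y : Lp ℝ 1 P) ω|) ω - 2 * a ≤ sgn P g ω * (y : Lp ℝ 1 P) ω := by
      intro ω
      have hs1 := abs_sgn P g ω
      by_cases hω : ω ∈ A
      · rw [Set.indicator_of_notMem (by simpa using hω), Set.indicator_of_mem hω]
        have h1 : -|(y : Lp ℝ 1 P) ω| ≤ sgn P g ω * (y : Lp ℝ 1 P) ω := by
          have := neg_abs_le (sgn P g ω * (y : Lp ℝ 1 P) ω)
          rwa [abs_mul, hs1, one_mul] at this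
        linarith
      · rw [Set.indicator_of_mem (by simpa using hω), Set.indicator_of_notMem hω]
        have hle : |(y : Lp ℝ 1 P) ω - g ω| ≤ a := by
          have : ¬ a < |(y : Lp ℝ 1 P) ω - g ω| := hω
          exact not_lt.mp this
        have h1 : sgn P g ω * (y : Lp ℝ 1 P) ω
            = |g ω| + sgn P g ω * ((y : Lp ℝ 1 P) ω - g ω) := by
          rw [← sgn_mul_self P g ω]; ring
        have h2 : -|(y : Lp ℝ 1 P) ω - g ω| ≤ sgn P g ω * ((y : Lp ℝ 1 P) ω - g ω) := by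
          have := neg_abs_le (sgn P g ω * ((y : Lp ℝ 1 P) ω - g ω))
          rwa [abs_mul, hs1, one_mul] at this
        have h3 : |(y : Lp ℝ 1 P) ω| ≤ |g ω| + |(y : Lp ℝ 1 P) ω - g ω| := by
          have := abs_add_le (g ω) ((y : Lp ℝ 1 P) ω - g ω)
          simpa using this
        linarith
    have hint1 : Integrable (fun ω => (Aᶜ).indicator (fun ω => |(y : Lp ℝ 1 P) ω|) ω
        - A.indicator (fun ω => |(y : Lp ℝ 1 P) ω|) ω - 2 * a) P :=
      ((hyi.indicator hA.compl).sub (hyi.indicator hA)).sub (integrable_const _)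
    have hmono := integral_mono hint1 (integrable_sgn_mul P g (y : Lp ℝ 1 P)) hpt
    rw [hφ] at hmono
    have hcomp : ∫ ω, ((Aᶜ).indicator (fun ω => |(y : Lp ℝ 1 P) ω|) ω
        - A.indicator (fun ω => |(y : Lp ℝ 1 P) ω|) ω - 2 * a) ∂P
        = ∫ ω in Aᶜ, |(y : Lp ℝ 1 P) ω| ∂P - ∫ ω in A, |(y : Lp ℝ 1 P) ω| ∂P - 2 * a := by
      have hi3 : Integrable (fun ω => (Aᶜ).indicator (fun ω => |(y : Lp ℝ 1 P) ω|) ω
          - A.indicator (fun ω => |(y : Lp ℝ 1 P) ω|) ω) P :=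
        (hyi.indicator hA.compl).sub (hyi.indicator hA)
      rw [integral_sub hi3 (integrable_const _),
        integral_sub (hyi.indicator hA.compl) (hyi.indicator hA),
        integral_indicator hA.compl, integral_indicator hA, integral_const]
      simp
    rw [hcomp] at hmono
    exact hmono
  have hysplit : ∫ ω in A, |(y : Lp ℝ 1 P) ω| ∂P + ∫ ω in Aᶜ, |(y : Lp ℝ 1 P) ω| ∂P = 1 := by
    rw [integral_add_compl hA hyi, ← norm_eq_integral_abs P E y, hy1]
  have hxsplit : ∫ ω in A, |(x : Lp ℝ 1 P) ω| ∂P + ∫ ω in Aᶜ, |(x : Lp ℝ 1 P) ω| ∂P = 1 := by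
    rw [integral_add_compl hA hxi', ← norm_eq_integral_abs P E x, hx]
  have hxA : ∫ ω in A, |(x : Lp ℝ 1 P) ω| ∂P < η / 2 :=
    hsmall A a (le_trans haε.le hε1) haP
  -- the main lower bound
  have hmain : 2 * ∫ ω in Aᶜ, |(x : Lp ℝ 1 P) ω| ∂P + 2 * t * ∫ ω in A, |(y : Lp ℝ 1 P) ω| ∂P
      ≤ ‖x + t • y‖ + ‖x - t • y‖ := by
    have e1 := norm_add_smul_eq P E x y t
    have e2 : ‖x - t • y‖ = ∫ ω, |(x : Lp ℝ 1 P) ω + (-t) * (y : Lp ℝ 1 P) ω| ∂P := by
      have := norm_add_smul_eq P E x y (-t)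
      rwa [neg_smul, ← sub_eq_add_neg] at this
    have hi1 : Integrable (fun ω => |(x : Lp ℝ 1 P) ω + t * (y : Lp ℝ 1 P) ω|) P :=
      (hxi.add ((L1.integrable_coeFn (y : Lp ℝ 1 P)).const_mul t)).norm
    have hi2 : Integrable (fun ω => |(x : Lp ℝ 1 P) ω + (-t) * (y : Lp ℝ 1 P) ω|) P :=
      (hxi.add ((L1.integrable_coeFn (y : Lp ℝ 1 P)).const_mul (-t))).norm
    rw [e1, e2, ← integral_add hi1 hi2]
    have hint2 : Integrable (fun ω => 2 * (Aᶜ).indicator (fun ω => |(x : Lp ℝ 1 P) ω|) ω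
        + 2 * t * A.indicator (fun ω => |(y : Lp ℝ 1 P) ω|) ω) P :=
      ((hxi'.indicator hA.compl).const_mul 2).add ((hyi.indicator hA).const_mul (2 * t))
    have hcomp : ∫ ω, (2 * (Aᶜ).indicator (fun ω => |(x : Lp ℝ 1 P) ω|) ω
        + 2 * t * A.indicator (fun ω => |(y : Lp ℝ 1 P) ω|) ω) ∂P
        = 2 * ∫ ω in Aᶜ, |(x : Lp ℝ 1 P) ω| ∂P + 2 * t * ∫ ω in A, |(y : Lp ℝ 1 P) ω| ∂P := by
      rw [integral_add ((hxi'.indicator hA.compl).const_mul 2) ((hyi.indicator hA).const_mul (2 * t)),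
        integral_const_mul, integral_const_mul, integral_indicator hA.compl, integral_indicator hA]
    rw [← hcomp]
    refine integral_mono hint2 (hi1.add hi2) ?_
    intro ω
    show 2 * (Aᶜ).indicator (fun ω => |(x : Lp ℝ 1 P) ω|) ω
        + 2 * t * A.indicator (fun ω => |(y : Lp ℝ 1 P) ω|) ω
      ≤ |(x : Lp ℝ 1 P) ω + t * (y : Lp ℝ 1 P) ω| + |(x : Lp ℝ 1 P) ω + (-t) * (y : Lp ℝ 1 P) ω|
    set p : ℝ := (x : Lp ℝ 1 P) ω with hp
    set q : ℝ := (y : Lp ℝ 1 P) ω with hq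
    have hP : 2 * |p| ≤ |p + t * q| + |p + -t * q| := by
      have := abs_add_le (p + t * q) (p + -t * q)
      have h2 : (p + t * q) + (p + -t * q) = 2 * p := by ring
      rw [h2, abs_mul, abs_of_pos (by norm_num : (0 : ℝ) < 2)] at this
      exact this
    have hQ : 2 * t * |q| ≤ |p + t * q| + |p + -t * q| := by
      have := abs_sub (p + t * q) (p + -t * q)
      have h2 : (p + t * q) - (p + -t * q) = 2 * t * q := by ring
      rw [h2, abs_mul, abs_of_pos (by positivity : (0 : ℝ) < 2 * t)] at this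
      exact this
    by_cases hω : ω ∈ A
    · rw [Set.indicator_of_notMem (by simpa using hω), Set.indicator_of_mem hω]
      simpa using hQ
    · rw [Set.indicator_of_mem (by simpa using hω), Set.indicator_of_notMem hω]
      simpa using hP
  -- arithmetic
  have hyA : 1 / 2 - a ≤ ∫ ω in A, |(y : Lp ℝ 1 P) ω| ∂P := by linarith
  have hta : t * a ≤ η / 2 := by
    calc t * a ≤ t * ε := by gcongr
      _ ≤ η / 2 := hε2
  have htyA : t * (1 / 2 - a) ≤ t * ∫ ω in A, |(y : Lp ℝ 1 P) ω| ∂P := by gcongr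
  nlinarith
end Crest.Agent.Helper7
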