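import Mathlib
import Crest.Prelude.Def_DaugavetL1
import Crest.Agent.Helper30.AUCBasic
import Crest.Agent.Helper7.S0167Generic
import Crest.Agent.Helper7.S0167Measure

/-!
Row 125 / S0167, package [C] (helper7): assembly of the statement of S0167 from "Lemma A"
(`LemmaAProp ↥E`, to be supplied by the Daugavet property).
-/

set_option autoImplicit false

namespace Crest.Agent.Helper7

open MeasureTheory Crest.AnalysisR Crest.Agent.Helper30

theorem s0167_of_lemmaA (Ω : Type) [MeasurableSpace Ω] (P : MeasureTheory.Measure Ω)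
    [MeasureTheory.IsProbabilityMeasure P]
    (E : Submodule ℝ (MeasureTheory.Lp ℝ 1 P)) (hcl : IsClosed (E : Set (MeasureTheory.Lp ℝ 1 P)))
    (hinf : ¬ FiniteDimensional ℝ E)
    (htb : Crest.AnalysisR.L1Subspace.UnitBallTotallyBoundedInMeasure P E)
    (hA : LemmaAProp E) :
    (∀ t : ℝ, 0 < t →
      (Crest.AnalysisR.L1Subspace.toRealBanach P E hcl).MidpointModulusGE
          (Crest.AnalysisR.L1Subspace.toRealBanach P E hcl).norm t (max (t / 2) (t - 1)) ∧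
        (Crest.AnalysisR.L1Subspace.toRealBanach P E hcl).MidpointModulusLE
          (Crest.AnalysisR.L1Subspace.toRealBanach P E hcl).norm t (max (t / 2) (t - 1)) ∧
        (Crest.AnalysisR.L1Subspace.toRealBanach P E hcl).OneSidedModulusGE
          (Crest.AnalysisR.L1Subspace.toRealBanach P E hcl).norm t (max 0 (t - 2)) ∧
        (Crest.AnalysisR.L1Subspace.toRealBanach P E hcl).OneSidedModulusLE
          (Crest.AnalysisR.L1Subspace.toRealBanach P E hcl).norm t (max 0 (t - 2))) ∧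
      ∀ N : E → ℝ, (Crest.AnalysisR.L1Subspace.toRealBanach P E hcl).IsEquivNorm N →
        ¬ (Crest.AnalysisR.L1Subspace.toRealBanach P E hcl).IsAUC N := by
  have hStar : StarProp E := star_of_lemmaA hA
  have hne : ∃ x : E, x ≠ 0 := by
    by_contra h
    have h' : ∀ x : E, x = 0 := by
      intro x
      by_contra hx
      exact h ⟨x, hx⟩
    have : Subsingleton E := ⟨fun a b => by rw [h' a, h' b]⟩
    exact hinf inferInstance
  have h1 : ∀ t : ℝ, 0 < t → ∀ x : E, ‖x‖ = 1 → ∀ η : ℝ, 0 < η → ∃ F : Set E, IsCofSet E F ∧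
      ∀ y ∈ F, ‖y‖ = 1 → max (t / 2) (t - 1) - η ≤ (‖x + t • y‖ + ‖x - t • y‖) / 2 - 1 := by
    intro t ht x hx η hη
    obtain ⟨F, hF, hFy⟩ := midpoint_ge_half P E htb x hx t ht η hη
    refine ⟨F, hF, fun y hy hy1 => ?_⟩
    have h1 := hFy y hy hy1
    have h2 := midpoint_ge_sub_one x y hy1 t ht
    rcases le_total (t / 2) (t - 1) with h | h
    · rw [max_eq_right h]; linarith
    · rw [max_eq_left h]; exact h1
  have h2 : ∀ t : ℝ, 0 < t → ∀ x : E, ‖x‖ = 1 → ∀ F : Set E, IsCofSet E F → ∀ η : ℝ, 0 < η →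
      ∃ y ∈ F, ‖y‖ = 1 ∧ (‖x + t • y‖ + ‖x - t • y‖) / 2 - 1 ≤ max (t / 2) (t - 1) + η :=
    fun t ht => midpoint_le_of_star hStar t ht
  have h3 : ∀ t : ℝ, 0 < t → ∀ x : E, ‖x‖ = 1 → ∀ η : ℝ, 0 < η → ∃ F : Set E, IsCofSet E F ∧
      ∀ y ∈ F, ‖y‖ = 1 → max 0 (t - 2) - η ≤ ‖x + t • y‖ - 1 := by
    intro t ht x hx η hη
    obtain ⟨F, hF, hFy⟩ := oneSided_ge x hx t ht
    refine ⟨F, hF, fun y hy hy1 => ?_⟩
    have h1 := hFy y hy hy1
    linarith
  have h4 : ∀ t : ℝ, 0 < t → ∀ x : E, ‖x‖ = 1 → ∀ F : Set E, IsCofSet E F → ∀ η : ℝ, 0 < η →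
      ∃ y ∈ F, ‖y‖ = 1 ∧ ‖x + t • y‖ - 1 ≤ max 0 (t - 2) + η :=
    fun t ht => oneSided_le_of_star hStar t ht
  have h5 : ∀ N : E → ℝ, IsEquivNormOn N → ¬ IsAUCOn N :=
    fun N hN => no_auc_of_star hStar hne N hN
  exact ⟨fun t ht => ⟨h1 t ht, h2 t ht, h3 t ht, h4 t ht⟩, h5⟩

end Crest.Agent.Helper7
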